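import Mathlib
import Vale.Agent.P252.Defs
import Vale.Agent.P252.Main

open scoped ContDiff

namespace Vale.Agent.Results.P252.AffineBernsteinFails

open Vale.Agent.P252

/-- For every `n ≥ 10` the affine Bernstein conjecture fails, already for entire graphs: there is
a smooth locally uniformly convex function on all of `ℝⁿ` which solves the affine maximal
equation and is not a quadratic polynomial. -/
theorem result (n : ℕ) (hn : 10 ≤ n) :
    ∃ u : EuclideanSpace ℝ (Fin n) → ℝ,
      ContDiff ℝ ∞ u ∧ (∀ x, (hessian u x).PosDef) ∧ SolvesAffineMaximal u ∧ ¬ IsQuadratic u :=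
  main_theorem n hn

end Vale.Agent.Results.P252.AffineBernsteinFails
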